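import Mathlib

open MeasureTheory Filter Topology Set

namespace Vale.Agent.P102

variable {Ω : Type*} [MeasurableSpace Ω]

def GapsGrow {k : ℕ} (t : ℕ → Fin k → ℕ) : Prop :=
  ∀ i j, i < j → ∀ M : ℕ, ∀ᶠ n in atTop, t n i + M ≤ t n j

def MixN (μ : Measure Ω) (T : Ω → Ω) (k : ℕ) : Prop :=
  ∀ A : Fin k → Set Ω, (∀ i, MeasurableSet (A i)) → ∀ t : ℕ → Fin k → ℕ, GapsGrow t →
    Tendsto (fun n => μ.real (⋂ i, T^[t n i] ⁻¹' A i)) atTop (𝓝 (∏ i, μ.real (A i)))

theorem GapsGrow.comp {k : ℕ} {t : ℕ → Fin k → ℕ} (h : GapsGrow t) {φ : ℕ → ℕ}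
    (hφ : Tendsto φ atTop atTop) : GapsGrow (fun n => t (φ n)) := by
  intro i j hij M
  exact hφ.eventually (h i j hij M)

theorem GapsGrow.succ {k : ℕ} {t : ℕ → Fin (k + 1) → ℕ} (h : GapsGrow t) :
    GapsGrow (fun n (i : Fin k) => t n i.succ) := by
  intro i j hij M
  exact h i.succ j.succ (Fin.succ_lt_succ_iff.mpr hij) M

theorem GapsGrow.castSucc {k : ℕ} {t : ℕ → Fin (k + 1) → ℕ} (h : GapsGrow t) :
    GapsGrow (fun n (i : Fin k) => t n i.castSucc) := by
  intro i j hij M
  exact h i.castSucc j.castSucc (Fin.castSucc_lt_castSucc_iff.mpr hij) M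

omit [MeasurableSpace Ω] in
theorem prod_indicator_eq {k : ℕ} (A : Fin k → Set Ω) (u : Fin k → Ω → Ω) (x : Ω) :
    ∏ i, (A i).indicator (fun _ => (1 : ℝ)) (u i x)
      = (⋂ i, u i ⁻¹' A i).indicator (fun _ => (1 : ℝ)) x := by
  classical
  by_cases h : x ∈ ⋂ i, u i ⁻¹' A i
  · rw [indicator_of_mem h]
    apply Finset.prod_eq_one
    intro i _
    rw [indicator_of_mem]
    exact mem_iInter.mp h i
  · rw [indicator_of_notMem h]
    rw [mem_iInter] at h
    push Not at h
    obtain ⟨i, hi⟩ := h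
    apply Finset.prod_eq_zero (Finset.mem_univ i)
    rw [indicator_of_notMem]
    exact hi

theorem abs_prod_sub_prod_le {ι : Type*} (s : Finset ι) (a b : ι → ℝ) (ha : ∀ i, |a i| ≤ 1)
    (hb : ∀ i, |b i| ≤ 1) : |∏ i ∈ s, a i - ∏ i ∈ s, b i| ≤ ∑ i ∈ s, |a i - b i| := by
  classical
  induction s using Finset.induction_on with
  | empty => simp
  | insert i s his ih =>
    rw [Finset.prod_insert his, Finset.prod_insert his, Finset.sum_insert his]
    have h1 : |∏ i ∈ s, b i| ≤ 1 := by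
      rw [Finset.abs_prod]
      exact Finset.prod_le_one (fun _ _ => abs_nonneg _) (fun i _ => hb i)
    calc |a i * ∏ i ∈ s, a i - b i * ∏ i ∈ s, b i|
        = |a i * (∏ i ∈ s, a i - ∏ i ∈ s, b i) + (a i - b i) * ∏ i ∈ s, b i| := by ring_nf
      _ ≤ |a i * (∏ i ∈ s, a i - ∏ i ∈ s, b i)| + |(a i - b i) * ∏ i ∈ s, b i| := abs_add_le _ _
      _ = |a i| * |∏ i ∈ s, a i - ∏ i ∈ s, b i| + |a i - b i| * |∏ i ∈ s, b i| := by
          rw [abs_mul, abs_mul]
      _ ≤ 1 * (∑ i ∈ s, |a i - b i|) + |a i - b i| * 1 := by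
          gcongr
          exact ha i
      _ = |a i - b i| + ∑ i ∈ s, |a i - b i| := by ring

theorem abs_prod_le_one {ι : Type*} (s : Finset ι) (a : ι → ℝ) (ha : ∀ i, |a i| ≤ 1) :
    |∏ i ∈ s, a i| ≤ 1 := by
  rw [Finset.abs_prod]
  exact Finset.prod_le_one (fun _ _ => abs_nonneg _) (fun i _ => ha i)

theorem mixFin {μ : Measure Ω} [IsProbabilityMeasure μ] {T : Ω → Ω} (hT : MeasurePreserving T μ μ)
    {k : ℕ} (h : MixN μ T k) (f : Fin k → Ω → ℝ) (hf : ∀ i, Measurable (f i))
    (hfin : ∀ i, (range (f i)).Finite) (t : ℕ → Fin k → ℕ) (ht : GapsGrow t) :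
    Tendsto (fun n => ∫ x, ∏ i, f i (T^[t n i] x) ∂μ) atTop (𝓝 (∏ i, ∫ x, f i x ∂μ)) := by
  classical
  set R : Fin k → Finset ℝ := fun i => (hfin i).toFinset with hR
  have hrep : ∀ i x, f i x = ∑ r ∈ R i, r * (f i ⁻¹' {r}).indicator (fun _ => (1 : ℝ)) x := by
    intro i x
    rw [Finset.sum_eq_single (f i x)]
    · simp
    · intro r _ hr
      rw [indicator_of_notMem]
      · ring
      · intro hx
        exact hr (by simpa using hx.symm)
    · intro hx
      exfalso
      apply hx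
      rw [hR]
      simp
  have hmeas : ∀ i r, MeasurableSet (f i ⁻¹' {r}) := fun i r => hf i (measurableSet_singleton r)
  have key : ∀ n, ∫ x, ∏ i, f i (T^[t n i] x) ∂μ
      = ∑ p ∈ Fintype.piFinset R, (∏ i, p i) *
          μ.real (⋂ i, T^[t n i] ⁻¹' (f i ⁻¹' {p i})) := by
    intro n
    have e1 : ∀ x, ∏ i, f i (T^[t n i] x)
        = ∑ p ∈ Fintype.piFinset R, (∏ i, p i) *
          (⋂ i, T^[t n i] ⁻¹' (f i ⁻¹' {p i})).indicator (fun _ => (1 : ℝ)) x := by
      intro x
      rw [Finset.prod_congr rfl (fun i _ => hrep i (T^[t n i] x))]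
      rw [Finset.prod_univ_sum]
      apply Finset.sum_congr rfl
      intro p _
      rw [Finset.prod_mul_distrib]
      rw [prod_indicator_eq (fun i => f i ⁻¹' {p i}) (fun i => T^[t n i]) x]
    simp_rw [e1]
    rw [integral_finsetSum]
    · apply Finset.sum_congr rfl
      intro p _
      rw [integral_const_mul]
      congr 1
      have hm : MeasurableSet (⋂ i, T^[t n i] ⁻¹' (f i ⁻¹' {p i})) := by
        apply MeasurableSet.iInter
        intro i
        exact (hT.iterate (t n i)).measurable (hmeas i (p i))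
      rw [show (fun _ : Ω => (1 : ℝ)) = (1 : Ω → ℝ) from rfl, integral_indicator_one hm]
    · intro p _
      apply Integrable.const_mul
      apply Integrable.indicator (integrable_const _)
      apply MeasurableSet.iInter
      intro i
      exact (hT.iterate (t n i)).measurable (hmeas i (p i))
  have key2 : ∏ i, ∫ x, f i x ∂μ
      = ∑ p ∈ Fintype.piFinset R, (∏ i, p i) * ∏ i, μ.real (f i ⁻¹' {p i}) := by
    have e2 : ∀ i, ∫ x, f i x ∂μ = ∑ r ∈ R i, r * μ.real (f i ⁻¹' {r}) := by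
      intro i
      rw [integral_congr_ae (Eventually.of_forall (hrep i)), integral_finsetSum]
      · apply Finset.sum_congr rfl
        intro r _
        rw [integral_const_mul]
        rw [show (fun _ : Ω => (1 : ℝ)) = (1 : Ω → ℝ) from rfl, integral_indicator_one (hmeas i r)]
      · intro r _
        apply Integrable.const_mul
        exact Integrable.indicator (integrable_const _) (hmeas i r)
    rw [Finset.prod_congr rfl (fun i _ => e2 i), Finset.prod_univ_sum]
    apply Finset.sum_congr rfl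
    intro p _
    rw [Finset.prod_mul_distrib]
  rw [key2]
  simp_rw [key]
  apply tendsto_finsetSum
  intro p _
  apply Tendsto.const_mul
  exact h (fun i => f i ⁻¹' {p i}) (fun i => hmeas i (p i)) t ht

end Vale.Agent.P102
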