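import Mathlib

open MeasureTheory Filter Topology

namespace Vale.Agent.P102

variable {Ω : Type*} [MeasurableSpace Ω]

def MixingOfOrder (μ : Measure Ω) (T : Ω ≃ᵐ Ω) (k : ℕ) : Prop :=
  ∀ A : Fin k → Set Ω, (∀ i, MeasurableSet (A i)) → ∀ t : ℕ → Fin k → ℤ,
    (∀ i j, i < j → Tendsto (fun n => t n j - t n i) atTop atTop) →
    Tendsto (fun n => μ (⋂ i, ((T.toEquiv : Equiv.Perm Ω) ^ (t n i)) ⁻¹' A i)) atTop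
      (𝓝 (∏ i, μ (A i)))

def IsCompactShear (μ : Measure Ω) (T : Ω → Ω) (g : ℕ → Ω → Ω) : Prop :=
  (∀ N, MeasurePreserving (g N) μ μ) ∧
  (∀ B, MeasurableSet B → Tendsto (fun N => μ.real (symmDiff (g N ⁻¹' B) B)) atTop (𝓝 0)) ∧
  ∀ m N : ℕ → ℕ, (∀ n, m n ≤ N n) → Tendsto N atTop atTop →
    ∃ (φ : ℕ → ℕ) (z : Ω → Ω), StrictMono φ ∧ MeasurePreserving z μ μ ∧
      ∀ B, MeasurableSet B → Tendsto (fun n => μ.real (symmDiff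
        ((T^[m (φ n)] ∘ g (N (φ n))) ⁻¹' B) ((z ∘ T^[m (φ n)]) ⁻¹' B))) atTop (𝓝 0)

def HasDecorrelatingShears (μ : Measure Ω) (T : Ω → Ω) : Prop :=
  ∀ A, MeasurableSet A → ∀ ε : ℝ, 0 < ε → ∀ K : ℕ, ∃ g : Fin K → ℕ → Ω → Ω,
    (∀ j, IsCompactShear μ T (g j)) ∧ ∀ j l, j ≠ l → ∀ᶠ N in atTop,
      |μ.real ((T^[N] ∘ g j N) ⁻¹' A ∩ (T^[N] ∘ g l N) ⁻¹' A) - μ.real A ^ 2| ≤ ε

def IsContinuousFlow (μ : Measure Ω) (z : ℝ → Ω → Ω) : Prop :=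
  (∀ s, MeasurePreserving (z s) μ μ) ∧ z 0 =ᵐ[μ] id ∧ (∀ s t, z (s + t) =ᵐ[μ] z s ∘ z t) ∧
  ∀ B, MeasurableSet B → Tendsto (fun s => μ.real (symmDiff (z s ⁻¹' B) B)) (𝓝 0) (𝓝 0)

def IsWeaklyMixingFlow (μ : Measure Ω) (z : ℝ → Ω → Ω) : Prop :=
  ∀ (n : ℕ) (A : Fin n → Set Ω), (∀ i, MeasurableSet (A i)) → ∀ ε : ℝ, 0 < ε → ∃ s : ℝ,
    ∀ i j, |μ.real (z s ⁻¹' A i ∩ A j) - μ.real (A i) * μ.real (A j)| ≤ ε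

end Vale.Agent.P102
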