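import Vale.Agent.P102.Induct

open MeasureTheory Filter Topology Set

namespace Vale.Agent.P102

variable {Ω : Type*} [MeasurableSpace Ω]

theorem exists_decorrelated {μ : Measure Ω} [IsProbabilityMeasure μ] {z : ℝ → Ω → Ω}
    (hz : ∀ s, MeasurePreserving (z s) μ μ) (hw : IsWeaklyMixingFlow μ z) (A : Set Ω)
    (hA : MeasurableSet A) (ε : ℝ) (hε : 0 < ε) (K : ℕ) :
    ∃ s : Fin K → ℝ, ∀ i j, i ≠ j →
      |μ.real (z (s i) ⁻¹' A ∩ z (s j) ⁻¹' A) - μ.real A ^ 2| ≤ ε := by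
  classical
  induction K with
  | zero => exact ⟨fun i => 0, fun i => i.elim0⟩
  | succ K ih =>
    obtain ⟨s, hs⟩ := ih
    obtain ⟨r, hr⟩ := hw (K + 1) (Fin.cons A (fun i => z (s i) ⁻¹' A))
      (by
        intro i
        refine Fin.cases ?_ ?_ i
        · exact hA
        · intro i
          exact (hz _).measurable hA) ε hε
    have hpre : ∀ i, μ.real (z (s i) ⁻¹' A) = μ.real A := by
      intro i
      rw [measureReal_def, measureReal_def, (hz _).measure_preimage hA.nullMeasurableSet]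
    have hr' : ∀ i : Fin K, |μ.real (z r ⁻¹' A ∩ z (s i) ⁻¹' A) - μ.real A ^ 2| ≤ ε := by
      intro i
      have := hr 0 i.succ
      rw [Fin.cons_zero, Fin.cons_succ, hpre] at this
      rw [sq]
      exact this
    refine ⟨Fin.cons r s, ?_⟩
    intro i j
    refine Fin.cases ?_ (fun i => ?_) i <;> refine Fin.cases ?_ (fun j => ?_) j
    · intro h
      exact absurd rfl h
    · intro _
      rw [Fin.cons_zero, Fin.cons_succ]
      exact hr' j
    · intro _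
      rw [Fin.cons_zero, Fin.cons_succ, inter_comm]
      exact hr' i
    · intro h
      rw [Fin.cons_succ, Fin.cons_succ]
      exact hs i j (fun hij => h (by rw [hij]))

theorem real_preimage {μ : Measure Ω} {u : Ω → Ω} (hu : MeasurePreserving u μ μ) {B : Set Ω}
    (hB : MeasurableSet B) : μ.real (u ⁻¹' B) = μ.real B := by
  rw [measureReal_def, measureReal_def, hu.measure_preimage hB.nullMeasurableSet]

theorem symmDiff_triangle {μ : Measure Ω} [IsProbabilityMeasure μ] (U V W : Set Ω) :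
    μ.real (symmDiff U W) ≤ μ.real (symmDiff U V) + μ.real (symmDiff V W) := by
  have hsub : symmDiff U W ⊆ symmDiff U V ∪ symmDiff V W := by
    intro x hx
    simp only [Set.mem_union, Set.mem_symmDiff] at *
    tauto
  calc μ.real (symmDiff U W) ≤ μ.real (symmDiff U V ∪ symmDiff V W) := measureReal_mono hsub
    _ ≤ _ := measureReal_union_le _ _

theorem flow_continuous {μ : Measure Ω} [IsProbabilityMeasure μ] {z : ℝ → Ω → Ω}
    (hz : IsContinuousFlow μ z) {s : ℕ → ℝ} {a : ℝ} (hs : Tendsto s atTop (𝓝 a)) {B : Set Ω}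
    (hB : MeasurableSet B) :
    Tendsto (fun n => μ.real (symmDiff (z (s n) ⁻¹' B) (z a ⁻¹' B))) atTop (𝓝 0) := by
  have h1 : Tendsto (fun n => s n - a) atTop (𝓝 0) := by
    have := hs.sub_const a
    simpa using this
  have h2 := (hz.2.2.2 B hB).comp h1
  refine h2.congr (fun n => ?_)
  simp only [Function.comp_apply]
  have hm : MeasurableSet (symmDiff (z (s n - a) ⁻¹' B) B) :=
    ((hz.1 _).measurable hB).symmDiff hB
  have e1 : z (s n) =ᵐ[μ] z (s n - a) ∘ z a := by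
    have := hz.2.2.1 (s n - a) a
    rwa [sub_add_cancel] at this
  have e2 : (symmDiff (z (s n) ⁻¹' B) (z a ⁻¹' B) : Set Ω)
      =ᵐ[μ] (z a ⁻¹' (symmDiff (z (s n - a) ⁻¹' B) B) : Set Ω) := by
    filter_upwards [e1] with x hx
    apply propext
    change x ∈ symmDiff (z (s n) ⁻¹' B) (z a ⁻¹' B) ↔ x ∈ z a ⁻¹' (symmDiff (z (s n - a) ⁻¹' B) B)
    simp only [Set.mem_symmDiff, mem_preimage]
    rw [hx]
    rfl
  rw [← real_preimage (hz.1 a) hm, measureReal_congr e2.symm]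

theorem iterate_relation {μ : Measure Ω} {T : Ω → Ω} (hT : MeasurePreserving T μ μ)
    {g z : ℝ → Ω → Ω} (hz : IsContinuousFlow μ z)
    (hTg : ∀ s, T ∘ g s =ᵐ[μ] g s ∘ z s ∘ T) (hTz : ∀ s, T ∘ z s =ᵐ[μ] z s ∘ T)
    (s : ℝ) (m : ℕ) :
    T^[m] ∘ g s =ᵐ[μ] g s ∘ z (m * s) ∘ T^[m] := by
  induction m with
  | zero =>
    have h0 : z ((0 : ℕ) * s) =ᵐ[μ] id := by
      rw [Nat.cast_zero, zero_mul]
      exact hz.2.1
    have := h0.fun_comp (g s)
    simpa using this.symm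
  | succ m ih =>
    have h1 : T ∘ (T^[m] ∘ g s) =ᵐ[μ] T ∘ (g s ∘ z (m * s) ∘ T^[m]) := ih.fun_comp T
    have h2 : (T ∘ g s) ∘ (z (m * s) ∘ T^[m]) =ᵐ[μ] (g s ∘ z s ∘ T) ∘ (z (m * s) ∘ T^[m]) :=
      ((hz.1 _).comp (hT.iterate m)).quasiMeasurePreserving.ae_eq_comp (hTg s)
    have h3 : (T ∘ z (m * s)) ∘ T^[m] =ᵐ[μ] (z (m * s) ∘ T) ∘ T^[m] :=
      (hT.iterate m).quasiMeasurePreserving.ae_eq_comp (hTz (m * s))
    have h4 := h3.fun_comp (g s ∘ z s)
    have h5 : (z (s + m * s)) ∘ (T ∘ T^[m]) =ᵐ[μ] (z s ∘ z (m * s)) ∘ (T ∘ T^[m]) :=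
      (hT.comp (hT.iterate m)).quasiMeasurePreserving.ae_eq_comp (hz.2.2.1 s (m * s))
    have h6 := h5.fun_comp (g s)
    have e1 : T^[m + 1] = T ∘ T^[m] := Function.iterate_succ' T m
    have e2 : ((m + 1 : ℕ) : ℝ) * s = s + m * s := by
      push_cast
      ring
    rw [e1, e2]
    calc (T ∘ T^[m]) ∘ g s = T ∘ (T^[m] ∘ g s) := rfl
      _ =ᵐ[μ] T ∘ (g s ∘ z (m * s) ∘ T^[m]) := h1
      _ = (T ∘ g s) ∘ (z (m * s) ∘ T^[m]) := rfl
      _ =ᵐ[μ] (g s ∘ z s ∘ T) ∘ (z (m * s) ∘ T^[m]) := h2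
      _ = (g s ∘ z s) ∘ ((T ∘ z (m * s)) ∘ T^[m]) := rfl
      _ =ᵐ[μ] (g s ∘ z s) ∘ ((z (m * s) ∘ T) ∘ T^[m]) := h4
      _ = g s ∘ ((z s ∘ z (m * s)) ∘ (T ∘ T^[m])) := rfl
      _ =ᵐ[μ] g s ∘ (z (s + m * s) ∘ (T ∘ T^[m])) := h6.symm

theorem preimage_symmDiff_real {μ : Measure Ω} {u : Ω → Ω} (hu : MeasurePreserving u μ μ)
    {U V : Set Ω} (hU : MeasurableSet U) (hV : MeasurableSet V) :
    μ.real (symmDiff (u ⁻¹' U) (u ⁻¹' V)) = μ.real (symmDiff U V) := by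
  rw [← real_preimage hu (hU.symmDiff hV)]
  rfl

theorem preimage_ae_eq {μ : Measure Ω} {u v : Ω → Ω} (h : u =ᵐ[μ] v) (B : Set Ω) :
    (u ⁻¹' B : Set Ω) =ᵐ[μ] (v ⁻¹' B : Set Ω) := by
  filter_upwards [h] with x hx
  apply propext
  change u x ∈ B ↔ v x ∈ B
  rw [hx]

theorem symmDiff_real_congr {μ : Measure Ω} {U U' V V' : Set Ω} (hU : U =ᵐ[μ] U') (hV : V =ᵐ[μ] V') :
    μ.real (symmDiff U V) = μ.real (symmDiff U' V') := by
  apply measureReal_congr
  filter_upwards [hU, hV] with x hx hy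
  have h1 : x ∈ U ↔ x ∈ U' := iff_of_eq hx
  have h2 : x ∈ V ↔ x ∈ V' := iff_of_eq hy
  apply propext
  change x ∈ symmDiff U V ↔ x ∈ symmDiff U' V'
  simp only [Set.mem_symmDiff, h1, h2]

theorem compactShear_of_relation {μ : Measure Ω} [IsProbabilityMeasure μ] {T : Ω → Ω}
    (hT : MeasurePreserving T μ μ) {g z : ℝ → Ω → Ω} (hz : IsContinuousFlow μ z)
    (hg : ∀ s, MeasurePreserving (g s) μ μ)
    (hg0 : ∀ B, MeasurableSet B → Tendsto (fun s => μ.real (symmDiff (g s ⁻¹' B) B)) (𝓝 0) (𝓝 0))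
    (hTg : ∀ s, T ∘ g s =ᵐ[μ] g s ∘ z s ∘ T) (hTz : ∀ s, T ∘ z s =ᵐ[μ] z s ∘ T) (s : ℝ) :
    IsCompactShear μ T (fun N => g (s / N)) := by
  refine ⟨fun N => hg _, ?_, ?_⟩
  · intro B hB
    exact (hg0 B hB).comp (tendsto_const_div_atTop_nhds_zero_nat s)
  · intro m N hmN hN
    have hmem : ∀ n, (m n : ℝ) / (N n : ℝ) ∈ Icc (0 : ℝ) 1 := by
      intro n
      constructor
      · positivity
      · apply div_le_one_of_le₀
        · exact_mod_cast hmN n
        · positivity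
    obtain ⟨c, _, φ, hφ, hc⟩ := (isCompact_Icc (a := (0 : ℝ)) (b := 1)).tendsto_subseq hmem
    refine ⟨φ, z (c * s), hφ, hz.1 _, ?_⟩
    intro B hB
    have hNφ : Tendsto (fun n => (N (φ n) : ℝ)) atTop atTop :=
      tendsto_natCast_atTop_atTop.comp (hN.comp hφ.tendsto_atTop)
    have hlim1 : Tendsto (fun n => (m (φ n) : ℝ) * (s / N (φ n))) atTop (𝓝 (c * s)) := by
      have := hc.mul_const s
      refine this.congr (fun n => ?_)
      simp only [Function.comp_apply]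
      ring
    have hz1 := flow_continuous hz hlim1 hB
    have hg1 : Tendsto (fun n => μ.real (symmDiff (g (s / N (φ n)) ⁻¹' B) B)) atTop (𝓝 0) :=
      (hg0 B hB).comp (tendsto_const_nhds.div_atTop hNφ)
    have hsum := hg1.add hz1
    rw [add_zero] at hsum
    refine squeeze_zero (fun n => measureReal_nonneg) (fun n => ?_) hsum
    set r : ℝ := s / N (φ n) with hr
    set M : ℕ := m (φ n) with hM
    have hm1 : MeasurableSet ((g r ∘ z (M * r)) ⁻¹' B) :=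
      ((hg r).comp (hz.1 _)).measurable hB
    have hm2 : MeasurableSet (z (c * s) ⁻¹' B) := (hz.1 _).measurable hB
    have e1 : μ.real (symmDiff ((T^[M] ∘ g r) ⁻¹' B) ((z (c * s) ∘ T^[M]) ⁻¹' B))
        = μ.real (symmDiff (T^[M] ⁻¹' ((g r ∘ z (M * r)) ⁻¹' B)) (T^[M] ⁻¹' (z (c * s) ⁻¹' B))) :=
      symmDiff_real_congr (preimage_ae_eq (iterate_relation hT hz hTg hTz r M) B)
        (EventuallyEq.refl _ _)
    rw [e1, preimage_symmDiff_real (hT.iterate M) hm1 hm2]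
    refine le_trans (symmDiff_triangle _ (z (M * r) ⁻¹' B) _) ?_
    have e2 : μ.real (symmDiff ((g r ∘ z (M * r)) ⁻¹' B) (z (M * r) ⁻¹' B))
        = μ.real (symmDiff (g r ⁻¹' B) B) :=
      preimage_symmDiff_real (hz.1 (M * r)) ((hg r).measurable hB) hB
    rw [e2]

theorem decorrelatingShears_of_relation {μ : Measure Ω} [IsProbabilityMeasure μ] {T : Ω → Ω}
    (hT : MeasurePreserving T μ μ) {g z : ℝ → Ω → Ω} (hz : IsContinuousFlow μ z)
    (hg : ∀ s, MeasurePreserving (g s) μ μ)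
    (hg0 : ∀ B, MeasurableSet B → Tendsto (fun s => μ.real (symmDiff (g s ⁻¹' B) B)) (𝓝 0) (𝓝 0))
    (hTg : ∀ s, T ∘ g s =ᵐ[μ] g s ∘ z s ∘ T) (hTz : ∀ s, T ∘ z s =ᵐ[μ] z s ∘ T)
    (hw : IsWeaklyMixingFlow μ z) : HasDecorrelatingShears μ T := by
  intro A hA ε hε K
  obtain ⟨s, hs⟩ := exists_decorrelated hz.1 hw A hA (ε / 2) (by positivity) K
  refine ⟨fun j N => g (s j / N), fun j => compactShear_of_relation hT hz hg hg0 hTg hTz (s j), ?_⟩
  intro j l hjl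
  have hsm : ∀ j, Tendsto (fun N : ℕ => μ.real (symmDiff (g (s j / N) ⁻¹' A) A)) atTop (𝓝 0) :=
    fun j => (hg0 A hA).comp (tendsto_const_div_atTop_nhds_zero_nat (s j))
  have h1 := (hsm j).eventually (Iio_mem_nhds (show (0 : ℝ) < ε / 4 by positivity))
  have h2 := (hsm l).eventually (Iio_mem_nhds (show (0 : ℝ) < ε / 4 by positivity))
  filter_upwards [h1, h2, eventually_ge_atTop 1] with N hN1 hN2 hN
  have hNr : (0 : ℝ) < N := by exact_mod_cast hN
  have hrel : ∀ j, T^[N] ∘ g (s j / N) =ᵐ[μ] g (s j / N) ∘ z (s j) ∘ T^[N] := by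
    intro j
    have := iterate_relation hT hz hTg hTz (s j / N) N
    rwa [mul_div_cancel₀ _ hNr.ne'] at this
  have hm : ∀ j, MeasurableSet ((g (s j / N) ∘ z (s j)) ⁻¹' A) :=
    fun j => ((hg _).comp (hz.1 _)).measurable hA
  have hm' : ∀ j, MeasurableSet (z (s j) ⁻¹' A) := fun j => (hz.1 _).measurable hA
  have e1 : μ.real ((T^[N] ∘ g (s j / N)) ⁻¹' A ∩ (T^[N] ∘ g (s l / N)) ⁻¹' A)
      = μ.real ((g (s j / N) ∘ z (s j)) ⁻¹' A ∩ (g (s l / N) ∘ z (s l)) ⁻¹' A) := by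
    rw [← real_preimage (hT.iterate N) ((hm j).inter (hm l))]
    apply measureReal_congr
    exact (preimage_ae_eq (hrel j) A).inter (preimage_ae_eq (hrel l) A)
  rw [e1]
  have h3 := abs_inter_sub_le (μ := μ) ((g (s j / N) ∘ z (s j)) ⁻¹' A)
    ((g (s l / N) ∘ z (s l)) ⁻¹' A) (z (s j) ⁻¹' A) (z (s l) ⁻¹' A) (hm j) (hm l) (hm' j) (hm' l)
  have e2 : ∀ j, μ.real (symmDiff ((g (s j / N) ∘ z (s j)) ⁻¹' A) (z (s j) ⁻¹' A))
      = μ.real (symmDiff (g (s j / N) ⁻¹' A) A) := fun j =>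
    preimage_symmDiff_real (hz.1 (s j)) ((hg _).measurable hA) hA
  rw [e2, e2] at h3
  have h4 := hs j l hjl
  have hN1' : μ.real (symmDiff (g (s j / N) ⁻¹' A) A) < ε / 4 := hN1
  have hN2' : μ.real (symmDiff (g (s l / N) ⁻¹' A) A) < ε / 4 := hN2
  rw [abs_le] at *
  constructor <;> linarith [h3.1, h3.2, h4.1, h4.2]

end Vale.Agent.P102
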