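import Vale.Agent.P102.Main
import Vale.Agent.P102.Defs

open MeasureTheory Filter Topology Set

namespace Vale.Agent.P102

variable {Ω : Type*} [MeasurableSpace Ω]

theorem mixN_zero {μ : Measure Ω} [IsProbabilityMeasure μ] {T : Ω → Ω} : MixN μ T 0 := by
  intro A hA t ht
  simp

theorem mixN_one {μ : Measure Ω} [IsProbabilityMeasure μ] {T : Ω → Ω}
    (hT : MeasurePreserving T μ μ) : MixN μ T 1 := by
  intro A hA t ht
  have : ∀ n, μ.real (⋂ i, T^[t n i] ⁻¹' A i) = ∏ i, μ.real (A i) := by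
    intro n
    rw [Fin.prod_univ_one]
    have e : (⋂ i, T^[t n i] ⁻¹' A i) = T^[t n 0] ⁻¹' A 0 := by
      ext x
      simp
    rw [e, measureReal_def, measureReal_def,
      (hT.iterate (t n 0)).measure_preimage (hA 0).nullMeasurableSet]
  simp_rw [this]
  exact tendsto_const_nhds

theorem common_subseq {ι : Type*} (s : Finset ι) (P : ι → (ℕ → ℕ) → Prop)
    (hP : ∀ i, ∀ ψ : ℕ → ℕ, StrictMono ψ → ∃ φ : ℕ → ℕ, StrictMono φ ∧ P i (ψ ∘ φ))
    (hmono : ∀ i, ∀ ψ φ : ℕ → ℕ, StrictMono φ → P i ψ → P i (ψ ∘ φ)) :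
    ∃ φ : ℕ → ℕ, StrictMono φ ∧ ∀ i ∈ s, P i φ := by
  classical
  induction s using Finset.induction_on with
  | empty => exact ⟨id, strictMono_id, by simp⟩
  | insert a s ha ih =>
    obtain ⟨ψ, hψ, h⟩ := ih
    obtain ⟨φ, hφ, h'⟩ := hP a ψ hψ
    refine ⟨ψ ∘ φ, hψ.comp hφ, ?_⟩
    intro i hi
    rcases Finset.mem_insert.mp hi with rfl | hi
    · exact h'
    · exact hmono i ψ φ hφ (h i hi)

theorem abs_inter_sub_le {μ : Measure Ω} [IsProbabilityMeasure μ] (U V U' V' : Set Ω)
    (hU : MeasurableSet U) (hV : MeasurableSet V) (hU' : MeasurableSet U') (hV' : MeasurableSet V') :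
    |μ.real (U ∩ V) - μ.real (U' ∩ V')| ≤ μ.real (symmDiff U U') + μ.real (symmDiff V V') := by
  have h1 : μ.real (U ∩ V) ≤ μ.real (U' ∩ V') + (μ.real (symmDiff U U') + μ.real (symmDiff V V')) := by
    have hsub : U ∩ V ⊆ (U' ∩ V') ∪ (symmDiff U U' ∪ symmDiff V V') := by
      intro x hx
      simp only [Set.mem_union, Set.mem_inter_iff, Set.mem_symmDiff] at *
      tauto
    calc μ.real (U ∩ V) ≤ μ.real ((U' ∩ V') ∪ (symmDiff U U' ∪ symmDiff V V')) :=
          measureReal_mono hsub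
      _ ≤ μ.real (U' ∩ V') + μ.real (symmDiff U U' ∪ symmDiff V V') := measureReal_union_le _ _
      _ ≤ _ := by
          have := measureReal_union_le (μ := μ) (symmDiff U U') (symmDiff V V')
          linarith
  have h2 : μ.real (U' ∩ V') ≤ μ.real (U ∩ V) + (μ.real (symmDiff U U') + μ.real (symmDiff V V')) := by
    have hsub : U' ∩ V' ⊆ (U ∩ V) ∪ (symmDiff U U' ∪ symmDiff V V') := by
      intro x hx
      simp only [Set.mem_union, Set.mem_inter_iff, Set.mem_symmDiff] at *
      tauto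
    calc μ.real (U' ∩ V') ≤ μ.real ((U ∩ V) ∪ (symmDiff U U' ∪ symmDiff V V')) :=
          measureReal_mono hsub
      _ ≤ μ.real (U ∩ V) + μ.real (symmDiff U U' ∪ symmDiff V V') := measureReal_union_le _ _
      _ ≤ _ := by
          have := measureReal_union_le (μ := μ) (symmDiff U U') (symmDiff V V')
          linarith
  rw [abs_le]
  constructor <;> linarith

theorem shear_integral_tendsto {μ : Measure Ω} [IsProbabilityMeasure μ] {T : Ω → Ω}
    (hT : MeasurePreserving T μ μ) (hS : HasDecorrelatingShears μ T) {k : ℕ}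
    (hMix : MixN μ T (k + 1)) (A : Fin (k + 2) → Set Ω) (hA : ∀ i, MeasurableSet (A i))
    (b : Fin (k + 2) → ℝ) (hb0 : ∀ i, 0 ≤ b i) (hb1 : ∀ i, b i ≤ 1)
    (hbl : b (Fin.last (k + 1)) = μ.real (A (Fin.last (k + 1))))
    (t : ℕ → Fin (k + 2) → ℕ) (ht : GapsGrow t) (h0 : ∀ n, t n 0 = 0) :
    Tendsto (fun n => ∫ x, ∏ i, ((A i).indicator (fun _ => (1 : ℝ)) (T^[t n i] x) - b i) ∂μ)
      atTop (𝓝 0) := by
  classical
  rw [Metric.tendsto_nhds]
  intro η hη
  by_contra hcon
  have hle' : ∀ᶠ n in atTop, ∀ i, t n i ≤ t n (Fin.last (k + 1)) := by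
    rw [eventually_all]
    intro i
    by_cases hi : i = Fin.last (k + 1)
    · subst hi
      exact Eventually.of_forall (fun _ => le_refl _)
    · have := ht i (Fin.last (k + 1)) (lt_of_le_of_ne (Fin.le_last i) hi) 0
      filter_upwards [this] with n hn
      omega
  have hfreq : ∃ᶠ n in atTop,
      (¬ dist (∫ x, ∏ i, ((A i).indicator (fun _ => (1 : ℝ)) (T^[t n i] x) - b i) ∂μ) 0 < η) ∧
        ∀ i, t n i ≤ t n (Fin.last (k + 1)) := by
    have := Filter.not_eventually.mp hcon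
    exact this.and_eventually hle'
  obtain ⟨ψ, hψ, hψP⟩ := extraction_of_frequently_atTop hfreq
  obtain ⟨K, hK⟩ := exists_nat_gt (8 / η ^ 2)
  obtain ⟨g, hg, hdec⟩ := hS (A (Fin.last (k + 1))) (hA _) (η ^ 2 / 16) (by positivity) K
  have hlast : Tendsto (fun n => t n (Fin.last (k + 1))) atTop atTop := by
    rw [tendsto_atTop]
    intro M
    have := ht 0 (Fin.last (k + 1)) (Fin.last_pos) M
    filter_upwards [this] with n hn
    omega
  -- common subsequence
  obtain ⟨φ, hφ, hφP⟩ := common_subseq (Finset.univ : Finset (Fin K × Fin (k + 2)))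
    (fun p φ => ∃ z : Ω → Ω, MeasurePreserving z μ μ ∧ ∀ B, MeasurableSet B →
      Tendsto (fun n => μ.real (symmDiff
        ((T^[t (ψ (φ n)) p.2] ∘ g p.1 (t (ψ (φ n)) (Fin.last (k + 1)))) ⁻¹' B)
        ((z ∘ T^[t (ψ (φ n)) p.2]) ⁻¹' B))) atTop (𝓝 0))
    (by
      intro p χ hχ
      have hN : Tendsto (fun n => t (ψ (χ n)) (Fin.last (k + 1))) atTop atTop :=
        hlast.comp (hψ.tendsto_atTop.comp hχ.tendsto_atTop)
      obtain ⟨φ, z, hφ, hz, hB⟩ := (hg p.1).2.2 (fun n => t (ψ (χ n)) p.2)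
        (fun n => t (ψ (χ n)) (Fin.last (k + 1))) (fun n => (hψP (χ n)).2 p.2) hN
      exact ⟨φ, hφ, z, hz, hB⟩)
    (by
      rintro p χ φ hφ ⟨z, hz, hB⟩
      exact ⟨z, hz, fun B hBm => (hB B hBm).comp hφ.tendsto_atTop⟩)
  choose z hz hzB using fun p : Fin K × Fin (k + 2) => hφP p (Finset.mem_univ p)
  have hcomp : Tendsto (fun n => ψ (φ n)) atTop atTop := hψ.tendsto_atTop.comp hφ.tendsto_atTop
  set t' : ℕ → Fin (k + 2) → ℕ := fun n => t (ψ (φ n)) with ht'
  have hgaps : GapsGrow t' := ht.comp hcomp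
  set z' : Fin K → Fin (k + 2) → Ω → Ω := fun j i => if i = 0 then id else z (j, i) with hz'
  have hz'mp : ∀ j i, MeasurePreserving (z' j i) μ μ := by
    intro j i
    by_cases hi : i = 0
    · simp only [hz', hi, if_true]
      exact MeasurePreserving.id μ
    · simp only [hz', hi, if_false]
      exact hz (j, i)
  have hlast0 : Fin.last (k + 1) ≠ 0 := Fin.last_pos.ne'
  have hconv : ∀ j i B, MeasurableSet B → Tendsto (fun n => μ.real (symmDiff
      ((T^[t' n i] ∘ g j (t' n (Fin.last (k + 1)))) ⁻¹' B) ((z' j i ∘ T^[t' n i]) ⁻¹' B)))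
      atTop (𝓝 0) := by
    intro j i B hB
    by_cases hi : i = 0
    · subst hi
      simp only [hz', ht', if_true, h0]
      exact ((hg j).2.1 B hB).comp (hlast.comp hcomp)
    · simp only [hz', hi, if_false]
      exact hzB (j, i) B hB
  have hlim := step_core hT hMix A hA b hb0 hb1 hbl t' hgaps η hη K hK g (fun j => (hg j).1) z' hz'mp
    (by
      intro j x
      simp [hz'])
    (fun j i => hconv j i (A i) (hA i))
    (by
      intro j l hjl
      set L := Fin.last (k + 1) with hL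
      have hd := (hlast.comp hcomp).eventually (hdec j l hjl)
      have e : ∀ n, μ.real (z' j L ⁻¹' A L ∩ z' l L ⁻¹' A L)
          = μ.real ((z' j L ∘ T^[t' n L]) ⁻¹' A L ∩ (z' l L ∘ T^[t' n L]) ⁻¹' A L) := by
        intro n
        have hm : MeasurableSet (z' j L ⁻¹' A L ∩ z' l L ⁻¹' A L) :=
          ((hz'mp j L).measurable (hA L)).inter ((hz'mp l L).measurable (hA L))
        have := (hT.iterate (t' n L)).measure_preimage hm.nullMeasurableSet
        rw [measureReal_def, measureReal_def, ← this]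
        rfl
      have hbd : ∀ᶠ n in atTop, |μ.real (z' j L ⁻¹' A L ∩ z' l L ⁻¹' A L) - μ.real (A L) ^ 2|
          ≤ η ^ 2 / 16 + (μ.real (symmDiff ((T^[t' n L] ∘ g j (t' n L)) ⁻¹' A L)
              ((z' j L ∘ T^[t' n L]) ⁻¹' A L))
            + μ.real (symmDiff ((T^[t' n L] ∘ g l (t' n L)) ⁻¹' A L)
              ((z' l L ∘ T^[t' n L]) ⁻¹' A L))) := by
        filter_upwards [hd] with n hn
        have hn' : |μ.real ((T^[t' n L] ∘ g j (t' n L)) ⁻¹' A L ∩ (T^[t' n L] ∘ g l (t' n L)) ⁻¹' A L)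
          - μ.real (A L) ^ 2| ≤ η ^ 2 / 16 := hn
        have h1 := abs_inter_sub_le (μ := μ) ((T^[t' n L] ∘ g j (t' n L)) ⁻¹' A L)
          ((T^[t' n L] ∘ g l (t' n L)) ⁻¹' A L) ((z' j L ∘ T^[t' n L]) ⁻¹' A L)
          ((z' l L ∘ T^[t' n L]) ⁻¹' A L)
          (((hT.iterate _).comp ((hg j).1 _)).measurable (hA L))
          (((hT.iterate _).comp ((hg l).1 _)).measurable (hA L))
          (((hz'mp j L).comp (hT.iterate _)).measurable (hA L))
          (((hz'mp l L).comp (hT.iterate _)).measurable (hA L))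
        rw [e n]
        rw [abs_le] at *
        constructor <;> linarith [hn'.1, hn'.2, h1.1, h1.2]
      have hlim2 : Tendsto (fun n => η ^ 2 / 16 + (μ.real (symmDiff ((T^[t' n L] ∘ g j (t' n L)) ⁻¹' A L)
              ((z' j L ∘ T^[t' n L]) ⁻¹' A L))
            + μ.real (symmDiff ((T^[t' n L] ∘ g l (t' n L)) ⁻¹' A L)
              ((z' l L ∘ T^[t' n L]) ⁻¹' A L)))) atTop (𝓝 (η ^ 2 / 16 + (0 + 0))) :=
        ((hconv j L (A L) (hA L)).add (hconv l L (A L) (hA L))).const_add _
      have := ge_of_tendsto hlim2 hbd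
      simpa using this)
  obtain ⟨n, hn⟩ := hlim.exists
  apply (hψP (φ n)).1
  rw [dist_zero_right, Real.norm_eq_abs]
  exact hn

theorem full_zero {μ : Measure Ω} [IsProbabilityMeasure μ] {T : Ω → Ω}
    (hT : MeasurePreserving T μ μ) (hS : HasDecorrelatingShears μ T) {k : ℕ}
    (hMix : MixN μ T (k + 1)) (A : Fin (k + 2) → Set Ω) (hA : ∀ i, MeasurableSet (A i))
    (t : ℕ → Fin (k + 2) → ℕ) (ht : GapsGrow t) (h0 : ∀ n, t n 0 = 0) :
    Tendsto (fun n => μ.real (⋂ i, T^[t n i] ⁻¹' A i)) atTop (𝓝 (∏ i, μ.real (A i))) := by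
  classical
  set a : ℝ := μ.real (A (Fin.last (k + 1))) with ha
  set b : Fin (k + 2) → ℝ := fun i => if i = Fin.last (k + 1) then a else 0 with hb
  have ha0 : 0 ≤ a := measureReal_nonneg
  have ha1 : a ≤ 1 := measureReal_le_one
  have hb0 : ∀ i, 0 ≤ b i := by
    intro i
    rw [hb]
    by_cases h : i = Fin.last (k + 1) <;> simp [h, ha0]
  have hb1 : ∀ i, b i ≤ 1 := by
    intro i
    rw [hb]
    by_cases h : i = Fin.last (k + 1) <;> simp [h, ha1]
  have hbl : b (Fin.last (k + 1)) = μ.real (A (Fin.last (k + 1))) := by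
    rw [hb]
    simp [ha]
  have hD := shear_integral_tendsto hT hS hMix A hA b hb0 hb1 hbl t ht h0
  have hcs : Tendsto (fun n => μ.real (⋂ i : Fin (k + 1), T^[t n i.castSucc] ⁻¹' A i.castSucc)) atTop
      (𝓝 (∏ i : Fin (k + 1), μ.real (A i.castSucc))) :=
    hMix (fun i => A i.castSucc) (fun i => hA _) (fun n i => t n i.castSucc) ht.castSucc
  have hsum := hD.add (hcs.const_mul a)
  rw [zero_add] at hsum
  rw [Fin.prod_univ_castSucc, mul_comm _ (μ.real (A (Fin.last (k + 1))))]
  refine hsum.congr (fun n => ?_)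
  have hm : ∀ i, MeasurableSet (T^[t n i] ⁻¹' A i) := fun i => (hT.iterate _).measurable (hA i)
  have hm1 : MeasurableSet (⋂ i, T^[t n i] ⁻¹' A i) := MeasurableSet.iInter hm
  have hm2 : MeasurableSet (⋂ i : Fin (k + 1), T^[t n i.castSucc] ⁻¹' A i.castSucc) :=
    MeasurableSet.iInter (fun i => hm i.castSucc)
  have e : ∀ x, ∏ i, ((A i).indicator (fun _ => (1 : ℝ)) (T^[t n i] x) - b i)
      = (⋂ i, T^[t n i] ⁻¹' A i).indicator (1 : Ω → ℝ) x
        - a * (⋂ i : Fin (k + 1), T^[t n i.castSucc] ⁻¹' A i.castSucc).indicator (1 : Ω → ℝ) x := by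
    intro x
    have e1 : (⋂ i, T^[t n i] ⁻¹' A i).indicator (1 : Ω → ℝ) x
        = ∏ i, (A i).indicator (fun _ => (1 : ℝ)) (T^[t n i] x) :=
      (prod_indicator_eq A (fun i => T^[t n i]) x).symm
    have e2 : (⋂ i : Fin (k + 1), T^[t n i.castSucc] ⁻¹' A i.castSucc).indicator (1 : Ω → ℝ) x
        = ∏ i : Fin (k + 1), (A i.castSucc).indicator (fun _ => (1 : ℝ)) (T^[t n i.castSucc] x) :=
      (prod_indicator_eq (fun i : Fin (k + 1) => A i.castSucc) (fun i => T^[t n i.castSucc]) x).symm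
    have e3 : ∏ i, (A i).indicator (fun _ => (1 : ℝ)) (T^[t n i] x)
        = (∏ i : Fin (k + 1), (A i.castSucc).indicator (fun _ => (1 : ℝ)) (T^[t n i.castSucc] x))
          * (A (Fin.last (k + 1))).indicator (fun _ => (1 : ℝ)) (T^[t n (Fin.last (k + 1))] x) :=
      Fin.prod_univ_castSucc _
    rw [e1, e2, e3, Fin.prod_univ_castSucc]
    have hbc : ∀ i : Fin (k + 1), b i.castSucc = 0 := by
      intro i
      rw [hb]
      simp [Fin.castSucc_ne_last]
    simp_rw [hbc, hbl, sub_zero]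
    rw [← ha]
    ring
  simp_rw [e]
  rw [integral_sub, integral_const_mul, integral_indicator_one hm1, integral_indicator_one hm2]
  · ring
  · exact Integrable.indicator (integrable_const (1 : ℝ)) hm1
  · exact (Integrable.indicator (integrable_const (1 : ℝ)) hm2).const_mul _

theorem mixN_step {μ : Measure Ω} [IsProbabilityMeasure μ] {T : Ω → Ω}
    (hT : MeasurePreserving T μ μ) (hS : HasDecorrelatingShears μ T) {k : ℕ}
    (hMix : MixN μ T (k + 1)) : MixN μ T (k + 2) := by
  intro A hA t ht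
  have h0le : ∀ᶠ n in atTop, ∀ i, t n 0 ≤ t n i := by
    rw [eventually_all]
    intro i
    by_cases hi : i = 0
    · subst hi
      exact Eventually.of_forall (fun _ => le_refl _)
    · have := ht 0 i (Fin.pos_of_ne_zero hi) 0
      filter_upwards [this] with n hn
      omega
  have ht' : GapsGrow (fun n i => t n i - t n 0) := by
    intro i j hij M
    filter_upwards [ht i j hij M, h0le] with n hn hn0
    have := hn0 i
    omega
  have h := full_zero hT hS hMix A hA (fun n i => t n i - t n 0) ht'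
    (fun n => Nat.sub_self _)
  refine h.congr' ?_
  filter_upwards [h0le] with n hn0
  have hm : MeasurableSet (⋂ i, T^[t n i - t n 0] ⁻¹' A i) :=
    MeasurableSet.iInter (fun i => (hT.iterate _).measurable (hA i))
  have e : (⋂ i, T^[t n i] ⁻¹' A i) = T^[t n 0] ⁻¹' (⋂ i, T^[t n i - t n 0] ⁻¹' A i) := by
    ext x
    simp only [mem_iInter, mem_preimage]
    apply forall_congr'
    intro i
    rw [← Function.iterate_add_apply, Nat.sub_add_cancel (hn0 i)]
  rw [e, measureReal_def, measureReal_def,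
    (hT.iterate (t n 0)).measure_preimage hm.nullMeasurableSet]

theorem mixN_all {μ : Measure Ω} [IsProbabilityMeasure μ] {T : Ω → Ω}
    (hT : MeasurePreserving T μ μ) (hS : HasDecorrelatingShears μ T) (k : ℕ) : MixN μ T k := by
  rcases k with _ | k
  · exact mixN_zero
  · induction k with
    | zero => exact mixN_one hT
    | succ k ih => exact mixN_step hT hS ih

theorem measurePreserving_zpow {μ : Measure Ω} {T : Ω ≃ᵐ Ω} (hT : MeasurePreserving T μ μ) (m : ℤ) :
    MeasurePreserving (((T.toEquiv : Equiv.Perm Ω) ^ m : Equiv.Perm Ω)) μ μ := by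
  have hpow : ∀ n : ℕ, MeasurePreserving (((T.toEquiv : Equiv.Perm Ω) ^ n : Equiv.Perm Ω)) μ μ := by
    intro n
    have e : (((T.toEquiv : Equiv.Perm Ω) ^ n : Equiv.Perm Ω) : Ω → Ω) = (⇑T)^[n] :=
      Equiv.Perm.coe_pow (T.toEquiv : Equiv.Perm Ω) n
    rw [e]
    exact hT.iterate n
  have hinv : ∀ n : ℕ, MeasurePreserving ((((T.toEquiv : Equiv.Perm Ω)⁻¹) ^ n : Equiv.Perm Ω)) μ μ := by
    intro n
    have e : ((((T.toEquiv : Equiv.Perm Ω)⁻¹) ^ n : Equiv.Perm Ω) : Ω → Ω) = (⇑T.symm)^[n] :=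
      Equiv.Perm.coe_pow ((T.toEquiv : Equiv.Perm Ω)⁻¹) n
    rw [e]
    exact (hT.symm T).iterate n
  rcases m with n | n
  · rw [Int.ofNat_eq_natCast, zpow_natCast]
    exact hpow n
  · rw [zpow_negSucc, ← inv_pow]
    exact hinv (n + 1)

theorem mixingOfOrder_of_mixN {μ : Measure Ω} [IsProbabilityMeasure μ] {T : Ω ≃ᵐ Ω}
    (hT : MeasurePreserving T μ μ) {k : ℕ} (h : MixN μ T k) : MixingOfOrder μ T k := by
  intro A hA t ht
  rcases k with _ | k
  · simp
  · have h0 : ∀ᶠ n in atTop, ∀ i, t n 0 ≤ t n i := by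
      rw [eventually_all]
      intro i
      by_cases hi : i = 0
      · subst hi
        exact Eventually.of_forall (fun _ => le_refl _)
      · filter_upwards [(ht 0 i (Fin.pos_of_ne_zero hi)).eventually_ge_atTop 0] with n hn
        omega
    set s : ℕ → Fin (k + 1) → ℕ := fun n i => (t n i - t n 0).toNat with hs
    have hsg : GapsGrow s := by
      intro i j hij M
      filter_upwards [(ht i j hij).eventually_ge_atTop M, h0] with n hn hn0
      have h1 := hn0 i
      have h2 := hn0 j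
      simp only [hs]
      omega
    have hlim := h A hA s hsg
    have hlim' : Tendsto (fun n => μ (⋂ i, (⇑T)^[s n i] ⁻¹' A i)) atTop (𝓝 (∏ i, μ (A i))) := by
      have h1 := (ENNReal.continuous_ofReal.tendsto _).comp hlim
      have e1 : ENNReal.ofReal (∏ i, μ.real (A i)) = ∏ i, μ (A i) := by
        rw [ENNReal.ofReal_prod_of_nonneg (fun i _ => measureReal_nonneg)]
        apply Finset.prod_congr rfl
        intro i _
        exact ofReal_measureReal
      rw [e1] at h1
      refine h1.congr (fun n => ?_)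
      simp only [Function.comp_apply]
      exact ofReal_measureReal
    refine hlim'.congr' ?_
    filter_upwards [h0] with n hn0
    have hm : MeasurableSet (⋂ i, (⇑T)^[s n i] ⁻¹' A i) :=
      MeasurableSet.iInter (fun i => (hT.iterate _).measurable (hA i))
    have e : (⋂ i, (((T.toEquiv : Equiv.Perm Ω) ^ (t n i) : Equiv.Perm Ω)) ⁻¹' A i)
        = (((T.toEquiv : Equiv.Perm Ω) ^ (t n 0) : Equiv.Perm Ω)) ⁻¹' (⋂ i, (⇑T)^[s n i] ⁻¹' A i) := by
      ext x
      simp only [mem_iInter, mem_preimage]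
      apply forall_congr'
      intro i
      have e1 : t n i = (s n i : ℤ) + t n 0 := by
        simp only [hs]
        have := hn0 i
        omega
      have e2 : ((T.toEquiv : Equiv.Perm Ω) ^ (t n i)) x
          = (⇑T)^[s n i] (((T.toEquiv : Equiv.Perm Ω) ^ (t n 0)) x) := by
        conv_lhs => rw [e1, zpow_add, zpow_natCast, Equiv.Perm.mul_apply]
        rw [Equiv.Perm.coe_pow]
        rfl
      rw [e2]
    rw [e, (measurePreserving_zpow hT (t n 0)).measure_preimage hm.nullMeasurableSet]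

end Vale.Agent.P102
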