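import Vale.Agent.P102.Step

open MeasureTheory Filter Topology Set

namespace Vale.Agent.P102

variable {Ω : Type*} [MeasurableSpace Ω]

theorem corr_last {μ : Measure Ω} [IsProbabilityMeasure μ] (A : Set Ω) (hA : MeasurableSet A)
    (u v : Ω → Ω) (hu : MeasurePreserving u μ μ) (hv : MeasurePreserving v μ μ) :
    ∫ x, (A.indicator (fun _ => (1 : ℝ)) (u x) - μ.real A) *
      (A.indicator (fun _ => (1 : ℝ)) (v x) - μ.real A) ∂μ
      = μ.real (u ⁻¹' A ∩ v ⁻¹' A) - μ.real A ^ 2 := by
  have hum : MeasurableSet (u ⁻¹' A) := hu.measurable hA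
  have hvm : MeasurableSet (v ⁻¹' A) := hv.measurable hA
  have e : ∀ x, (A.indicator (fun _ => (1 : ℝ)) (u x) - μ.real A) *
      (A.indicator (fun _ => (1 : ℝ)) (v x) - μ.real A)
      = (u ⁻¹' A ∩ v ⁻¹' A).indicator (1 : Ω → ℝ) x - μ.real A * (u ⁻¹' A).indicator (1 : Ω → ℝ) x
        - μ.real A * (v ⁻¹' A).indicator (1 : Ω → ℝ) x + μ.real A ^ 2 := by
    intro x
    have h1 : (u ⁻¹' A ∩ v ⁻¹' A).indicator (1 : Ω → ℝ) x
        = A.indicator (fun _ => (1 : ℝ)) (u x) * A.indicator (fun _ => (1 : ℝ)) (v x) := by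
      by_cases h1 : u x ∈ A <;> by_cases h2 : v x ∈ A <;> simp [Set.indicator, h1, h2]
    have h2 : (u ⁻¹' A).indicator (1 : Ω → ℝ) x = A.indicator (fun _ => (1 : ℝ)) (u x) := by
      by_cases h1 : u x ∈ A <;> simp [Set.indicator, h1]
    have h3 : (v ⁻¹' A).indicator (1 : Ω → ℝ) x = A.indicator (fun _ => (1 : ℝ)) (v x) := by
      by_cases h1 : v x ∈ A <;> simp [Set.indicator, h1]
    rw [h1, h2, h3]
    ring
  simp_rw [e]
  have i1 : Integrable ((u ⁻¹' A ∩ v ⁻¹' A).indicator (1 : Ω → ℝ)) μ :=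
    Integrable.indicator (integrable_const (1 : ℝ)) (hum.inter hvm)
  have i2 : Integrable (fun x => μ.real A * (u ⁻¹' A).indicator (1 : Ω → ℝ) x) μ :=
    (Integrable.indicator (integrable_const (1 : ℝ)) hum).const_mul _
  have i3 : Integrable (fun x => μ.real A * (v ⁻¹' A).indicator (1 : Ω → ℝ) x) μ :=
    (Integrable.indicator (integrable_const (1 : ℝ)) hvm).const_mul _
  have i4 : Integrable (fun x => (u ⁻¹' A ∩ v ⁻¹' A).indicator (1 : Ω → ℝ) x
      - μ.real A * (u ⁻¹' A).indicator (1 : Ω → ℝ) x) μ := i1.sub i2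
  have i5 : Integrable (fun x => (u ⁻¹' A ∩ v ⁻¹' A).indicator (1 : Ω → ℝ) x
      - μ.real A * (u ⁻¹' A).indicator (1 : Ω → ℝ) x
      - μ.real A * (v ⁻¹' A).indicator (1 : Ω → ℝ) x) μ := i4.sub i3
  rw [integral_add i5 (integrable_const _), integral_sub i4 i3,
    integral_sub i1 i2, integral_const_mul, integral_const_mul, integral_indicator_one (hum.inter hvm),
    integral_indicator_one hum, integral_indicator_one hvm]
  have hu' : μ.real (u ⁻¹' A) = μ.real A := by
    rw [measureReal_def, measureReal_def, hu.measure_preimage hA.nullMeasurableSet]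
  have hv' : μ.real (v ⁻¹' A) = μ.real A := by
    rw [measureReal_def, measureReal_def, hv.measure_preimage hA.nullMeasurableSet]
  rw [hu', hv']
  simp
  ring

/-- one step of the induction, along a sequence of times for which the conjugates converge -/
theorem step_core {μ : Measure Ω} [IsProbabilityMeasure μ] {T : Ω → Ω}
    (hT : MeasurePreserving T μ μ) {k : ℕ} (hMix : MixN μ T (k + 1))
    (A : Fin (k + 2) → Set Ω) (hA : ∀ i, MeasurableSet (A i))
    (b : Fin (k + 2) → ℝ) (hb0 : ∀ i, 0 ≤ b i) (hb1 : ∀ i, b i ≤ 1)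
    (hbl : b (Fin.last (k + 1)) = μ.real (A (Fin.last (k + 1))))
    (t : ℕ → Fin (k + 2) → ℕ) (ht : GapsGrow t)
    (η : ℝ) (hη : 0 < η) (K : ℕ) (hK : 8 / η ^ 2 < K)
    (g : Fin K → ℕ → Ω → Ω) (hg : ∀ j N, MeasurePreserving (g j N) μ μ)
    (z : Fin K → Fin (k + 2) → Ω → Ω) (hz : ∀ j i, MeasurePreserving (z j i) μ μ)
    (hz0 : ∀ j x, z j 0 x = x)
    (hconv : ∀ j i, Tendsto (fun n => μ.real (symmDiff
      ((T^[t n i] ∘ g j (t n (Fin.last (k + 1)))) ⁻¹' A i) ((z j i ∘ T^[t n i]) ⁻¹' A i)))
      atTop (𝓝 0))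
    (hdec : ∀ j l, j ≠ l → |μ.real (z j (Fin.last (k + 1)) ⁻¹' A (Fin.last (k + 1))
      ∩ z l (Fin.last (k + 1)) ⁻¹' A (Fin.last (k + 1)))
      - μ.real (A (Fin.last (k + 1))) ^ 2| ≤ η ^ 2 / 16) :
    ∀ᶠ n in atTop,
      |∫ x, ∏ i, ((A i).indicator (fun _ => (1 : ℝ)) (T^[t n i] x) - b i) ∂μ| < η := by
  classical
  have hTn : ∀ n, MeasurePreserving (T^[n]) μ μ := fun n => hT.iterate n
  have hKpos : 0 < K := by
    have : (0 : ℝ) < K := lt_trans (by positivity) hK
    exact_mod_cast this
  have hKr : (0 : ℝ) < K := by exact_mod_cast hKpos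
  set ε : ℝ := η ^ 2 / 16 with hε
  have hεpos : 0 < ε := by positivity
  -- the factors
  set φ : Fin K → Fin (k + 1) → Ω → ℝ := fun j i y =>
    ((A i.succ).indicator (fun _ => (1 : ℝ)) (z j i.succ y) - b i.succ) with hφ
  set H : ℕ → Ω → ℝ := fun n x =>
    ((A 0).indicator (fun _ => (1 : ℝ)) (T^[t n 0] x) - b 0) with hH
  set G : ℕ → Fin K → Ω → ℝ := fun n j x => ∏ i : Fin (k + 1), φ j i (T^[t n i.succ] x) with hG
  have hφm : ∀ j i, Measurable (φ j i) := by
    intro j i
    exact (((measurable_const (a := (1 : ℝ))).indicator (hA i.succ)).comp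
        (hz _ _).measurable).sub measurable_const
  have hφ1 : ∀ j i y, |φ j i y| ≤ 1 := by
    intro j i y
    exact abs_indicator_sub_le _ _ (hb0 _) (hb1 _) _
  have hφfin : ∀ j i, (range (φ j i)).Finite := by
    intro j i
    apply Set.Finite.subset (Set.toFinite ({1 - b i.succ, 0 - b i.succ} : Set ℝ))
    rintro _ ⟨y, rfl⟩
    simp only [hφ]
    by_cases hy : z j i.succ y ∈ A i.succ
    · rw [indicator_of_mem hy]
      simp
    · rw [indicator_of_notMem hy]
      simp
  have hGm : ∀ n j, Measurable (G n j) := by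
    intro n j
    apply Finset.measurable_prod
    intro i _
    exact (hφm j i).comp (hTn _).measurable
  have hG1 : ∀ n j x, |G n j x| ≤ 1 := by
    intro n j x
    exact abs_prod_le_one _ _ (fun i => hφ1 j i _)
  have hHm : ∀ n, Measurable (H n) := by
    intro n
    exact (((measurable_const (a := (1 : ℝ))).indicator (hA 0)).comp
        (hTn _).measurable).sub measurable_const
  have hH1 : ∀ n x, |H n x| ≤ 1 := by
    intro n x
    exact abs_indicator_sub_le _ _ (hb0 _) (hb1 _) _
  have hsplit : ∀ n j x, ∏ i, ((A i).indicator (fun _ => (1 : ℝ)) (z j i (T^[t n i] x)) - b i)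
      = H n x * G n j x := by
    intro n j x
    rw [Fin.prod_univ_succ, hz0]
  have hcorr : ∀ j l, j ≠ l → ∀ᶠ n in atTop, |∫ x, G n j x * G n l x ∂μ| ≤ 2 * ε := by
    intro j l hjl
    have hlim : Tendsto (fun n => ∫ x, G n j x * G n l x ∂μ) atTop
        (𝓝 (∏ i, ∫ x, φ j i x * φ l i x ∂μ)) := by
      have := mixFin hT hMix (fun i y => φ j i y * φ l i y) (fun i => (hφm j i).mul (hφm l i))
        (fun i => ((hφfin j i).image2 (· * ·) (hφfin l i)).subset (by
          rintro _ ⟨y, rfl⟩
          exact ⟨φ j i y, ⟨y, rfl⟩, φ l i y, ⟨y, rfl⟩, rfl⟩)) (fun n i => t n i.succ) ht.succ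
      refine this.congr (fun n => ?_)
      congr 1
      ext x
      rw [hG]
      simp only
      rw [← Finset.prod_mul_distrib]
    have hbound : |∏ i, ∫ x, φ j i x * φ l i x ∂μ| ≤ ε := by
      have hi1 : ∀ i, |∫ x, φ j i x * φ l i x ∂μ| ≤ 1 := by
        intro i
        calc |∫ x, φ j i x * φ l i x ∂μ| ≤ ∫ x, |φ j i x * φ l i x| ∂μ := abs_integral_le_integral_abs
          _ ≤ ∫ _x, (1 : ℝ) ∂μ := by
              apply integral_mono_of_nonneg
              · exact Eventually.of_forall (fun x => abs_nonneg _)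
              · exact integrable_const _
              · apply Eventually.of_forall
                intro x
                simp only
                rw [abs_mul]
                calc |φ j i x| * |φ l i x| ≤ 1 * 1 := by
                      gcongr
                      · exact hφ1 j i x
                      · exact hφ1 l i x
                  _ = 1 := by ring
          _ = 1 := by simp
      rw [Fin.prod_univ_castSucc, abs_mul]
      have hl : |∫ x, φ j (Fin.last k) x * φ l (Fin.last k) x ∂μ| ≤ ε := by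
        have hls : (Fin.last k).succ = Fin.last (k + 1) := Fin.succ_last k
        have e : ∀ x, φ j (Fin.last k) x * φ l (Fin.last k) x
            = ((A (Fin.last (k + 1))).indicator (fun _ => (1 : ℝ)) (z j (Fin.last (k + 1)) x)
                - μ.real (A (Fin.last (k + 1)))) *
              ((A (Fin.last (k + 1))).indicator (fun _ => (1 : ℝ)) (z l (Fin.last (k + 1)) x)
                - μ.real (A (Fin.last (k + 1)))) := by
          intro x
          simp only [hφ, hls, hbl]
        simp_rw [e]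
        rw [corr_last _ (hA _) _ _ (hz j _) (hz l _)]
        exact hdec j l hjl
      calc |∏ i : Fin k, ∫ x, φ j i.castSucc x * φ l i.castSucc x ∂μ| *
            |∫ x, φ j (Fin.last k) x * φ l (Fin.last k) x ∂μ| ≤ 1 * ε := by
            gcongr
            exact abs_prod_le_one _ _ (fun i => hi1 _)
        _ = ε := one_mul _
    have hlim' := hlim.abs
    have := hlim'.eventually (Iio_mem_nhds (lt_of_le_of_lt hbound (by linarith : ε < 2 * ε)))
    filter_upwards [this] with n hn
    exact le_of_lt hn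
  have hcorr' : ∀ᶠ n in atTop, ∀ j l, j ≠ l → |∫ x, G n j x * G n l x ∂μ| ≤ 2 * ε := by
    rw [eventually_all]
    intro j
    rw [eventually_all]
    intro l
    by_cases hjl : j = l
    · exact Eventually.of_forall (fun n h => absurd hjl h)
    · filter_upwards [hcorr j l hjl] with n hn _
      exact hn
  -- errors
  have herr : ∀ j, Tendsto (fun n => ∑ i, μ.real (symmDiff
      ((T^[t n i] ∘ g j (t n (Fin.last (k + 1)))) ⁻¹' A i)
      ((z j i ∘ T^[t n i]) ⁻¹' A i))) atTop (𝓝 0) := by
    intro j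
    have hz' : (0 : ℝ) = ∑ _i : Fin (k + 2), (0 : ℝ) := by simp
    rw [hz']
    apply tendsto_finsetSum
    intro i _
    exact hconv j i
  have herr' : ∀ᶠ n in atTop, ∀ j, ∑ i, μ.real (symmDiff
      ((T^[t n i] ∘ g j (t n (Fin.last (k + 1)))) ⁻¹' A i)
      ((z j i ∘ T^[t n i]) ⁻¹' A i)) < η / 4 := by
    rw [eventually_all]
    intro j
    exact (herr j).eventually (Iio_mem_nhds (by positivity))
  filter_upwards [hcorr', herr'] with n hn1 hn2
  set D : ℝ := ∫ x, ∏ i, ((A i).indicator (fun _ => (1 : ℝ)) (T^[t n i] x) - b i) ∂μ with hD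
  have hDE : ∀ j, |D - ∫ x, H n x * G n j x ∂μ| ≤ η / 4 := by
    intro j
    have hchange : D = ∫ x, ∏ i, ((A i).indicator (fun _ => (1 : ℝ))
        ((T^[t n i] ∘ g j (t n (Fin.last (k + 1)))) x) - b i) ∂μ := by
      rw [hD]
      conv_lhs => rw [← (hg j (t n (Fin.last (k + 1)))).map_eq]
      rw [integral_map (hg _ _).measurable.aemeasurable]
      · rfl
      · apply Measurable.aestronglyMeasurable
        apply Finset.measurable_prod
        intro i _
        exact (((measurable_const (a := (1 : ℝ))).indicator (hA i)).comp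
          (hTn _).measurable).sub measurable_const
    have he : ∫ x, H n x * G n j x ∂μ = ∫ x, ∏ i, ((A i).indicator (fun _ => (1 : ℝ))
        ((z j i ∘ T^[t n i]) x) - b i) ∂μ := by
      congr 1
      ext x
      rw [← hsplit n j x]
      rfl
    rw [hchange, he]
    refine le_trans (error_bound A hA b hb0 hb1 _ _ ?_ ?_) (le_of_lt (hn2 j))
    · intro i
      exact (hTn _).measurable.comp (hg _ _).measurable
    · intro i
      exact (hz _ _).measurable.comp (hTn _).measurable
  have havg := average_bound (μ := μ) hKpos (H n) (G n) (hHm n) (hGm n) (hH1 n) (hG1 n) (2 * ε)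
    (by positivity) hn1 (η / 2) (by positivity)
  have hsum : (K : ℝ) * D = ∑ j, ∫ x, H n x * G n j x ∂μ
      + ∑ j, (D - ∫ x, H n x * G n j x ∂μ) := by
    rw [← Finset.sum_add_distrib]
    simp
  have habs : (K : ℝ) * |D| ≤ K * (η / 2 / 2 + (1 / K + 2 * ε) / (2 * (η / 2))) + K * (η / 4) := by
    calc (K : ℝ) * |D| = |(K : ℝ) * D| := by rw [abs_mul, abs_of_pos hKr]
      _ ≤ |∑ j, ∫ x, H n x * G n j x ∂μ| + |∑ j, (D - ∫ x, H n x * G n j x ∂μ)| := by
          rw [hsum]
          exact abs_add_le _ _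
      _ ≤ K * (η / 2 / 2 + (1 / K + 2 * ε) / (2 * (η / 2))) + ∑ _j : Fin K, (η / 4) := by
          gcongr
          · refine le_trans (Finset.abs_sum_le_sum_abs _ _) ?_
            apply Finset.sum_le_sum
            intro j _
            exact hDE j
      _ = _ := by simp
  have hK1 : 1 / (K : ℝ) < η ^ 2 / 8 := by
    rw [div_lt_div_iff₀ hKr (by norm_num)]
    rw [div_lt_iff₀ (by positivity)] at hK
    linarith
  have hfin : (1 / (K : ℝ) + 2 * ε) / (2 * (η / 2)) < η / 4 := by
    rw [div_lt_iff₀ (by positivity), hε]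
    nlinarith
  have : |D| ≤ (η / 2 / 2 + (1 / K + 2 * ε) / (2 * (η / 2))) + η / 4 := by
    have h := habs
    rw [← mul_add] at h
    exact le_of_mul_le_mul_left h hKr
  linarith

end Vale.Agent.P102
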