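import Vale.Agent.P102.Basic

open MeasureTheory Filter Topology Set

namespace Vale.Agent.P102

variable {Ω : Type*} [MeasurableSpace Ω]

omit [MeasurableSpace Ω] in
theorem abs_indicator_sub_le (A : Set Ω) (a : ℝ) (h0 : 0 ≤ a) (h1 : a ≤ 1) (x : Ω) :
    |A.indicator (fun _ => (1 : ℝ)) x - a| ≤ 1 := by
  by_cases hx : x ∈ A
  · rw [indicator_of_mem hx, abs_le]
    constructor <;> linarith
  · rw [indicator_of_notMem hx, abs_le]
    constructor <;> linarith

omit [MeasurableSpace Ω] in
theorem abs_indicator_sub_indicator (A : Set Ω) (u v : Ω → Ω) (x : Ω) :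
    |A.indicator (fun _ => (1 : ℝ)) (u x) - A.indicator (fun _ => (1 : ℝ)) (v x)|
      = (symmDiff (u ⁻¹' A) (v ⁻¹' A)).indicator (fun _ => (1 : ℝ)) x := by
  by_cases hu : u x ∈ A <;> by_cases hv : v x ∈ A
  · rw [indicator_of_mem hu, indicator_of_mem hv, indicator_of_notMem]
    · simp
    · simp [Set.mem_symmDiff, hu, hv]
  · rw [indicator_of_mem hu, indicator_of_notMem hv, indicator_of_mem]
    · simp
    · simp [Set.mem_symmDiff, hu, hv]
  · rw [indicator_of_notMem hu, indicator_of_mem hv, indicator_of_mem]
    · simp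
    · simp [Set.mem_symmDiff, hu, hv]
  · rw [indicator_of_notMem hu, indicator_of_notMem hv, indicator_of_notMem]
    · simp
    · simp [Set.mem_symmDiff, hu, hv]

/-- error of replacing the coordinate maps -/
theorem error_bound {μ : Measure Ω} [IsProbabilityMeasure μ] {k : ℕ} (A : Fin k → Set Ω)
    (hA : ∀ i, MeasurableSet (A i)) (b : Fin k → ℝ) (hb0 : ∀ i, 0 ≤ b i) (hb1 : ∀ i, b i ≤ 1)
    (u v : Fin k → Ω → Ω) (hu : ∀ i, Measurable (u i)) (hv : ∀ i, Measurable (v i)) :
    |(∫ x, ∏ i, ((A i).indicator (fun _ => (1 : ℝ)) (u i x) - b i) ∂μ)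
      - ∫ x, ∏ i, ((A i).indicator (fun _ => (1 : ℝ)) (v i x) - b i) ∂μ|
      ≤ ∑ i, μ.real (symmDiff (u i ⁻¹' A i) (v i ⁻¹' A i)) := by
  have hmeas : ∀ (w : Fin k → Ω → Ω), (∀ i, Measurable (w i)) →
      Measurable (fun x => ∏ i, ((A i).indicator (fun _ => (1 : ℝ)) (w i x) - b i)) := by
    intro w hw
    apply Finset.measurable_prod
    intro i _
    exact (((measurable_const (a := (1 : ℝ))).indicator (hA i)).comp (hw i)).sub measurable_const
  have hint : ∀ (w : Fin k → Ω → Ω), (∀ i, Measurable (w i)) →
      Integrable (fun x => ∏ i, ((A i).indicator (fun _ => (1 : ℝ)) (w i x) - b i)) μ := by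
    intro w hw
    apply Integrable.of_bound (hmeas w hw).aestronglyMeasurable 1
    apply Eventually.of_forall
    intro x
    rw [Real.norm_eq_abs]
    exact abs_prod_le_one _ _ (fun i => abs_indicator_sub_le (A i) (b i) (hb0 i) (hb1 i) _)
  rw [← integral_sub (hint u hu) (hint v hv)]
  have hs : ∀ i, MeasurableSet (symmDiff (u i ⁻¹' A i) (v i ⁻¹' A i)) :=
    fun i => (hu i (hA i)).symmDiff (hv i (hA i))
  calc |∫ x, (∏ i, ((A i).indicator (fun _ => (1 : ℝ)) (u i x) - b i)
          - ∏ i, ((A i).indicator (fun _ => (1 : ℝ)) (v i x) - b i)) ∂μ|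
      ≤ ∫ x, |∏ i, ((A i).indicator (fun _ => (1 : ℝ)) (u i x) - b i)
          - ∏ i, ((A i).indicator (fun _ => (1 : ℝ)) (v i x) - b i)| ∂μ := abs_integral_le_integral_abs
    _ ≤ ∫ x, ∑ i, (symmDiff (u i ⁻¹' A i) (v i ⁻¹' A i)).indicator (fun _ => (1 : ℝ)) x ∂μ := by
        apply integral_mono
        · exact ((hint u hu).sub (hint v hv)).abs
        · apply integrable_finsetSum
          intro i _
          exact Integrable.indicator (integrable_const _) (hs i)
        · intro x
          refine le_trans (abs_prod_sub_prod_le _ _ _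
            (fun i => abs_indicator_sub_le (A i) (b i) (hb0 i) (hb1 i) _)
            (fun i => abs_indicator_sub_le (A i) (b i) (hb0 i) (hb1 i) _)) ?_
          apply Finset.sum_le_sum
          intro i _
          rw [← abs_indicator_sub_indicator]
          apply le_of_eq
          congr 1
          ring
    _ = ∑ i, μ.real (symmDiff (u i ⁻¹' A i) (v i ⁻¹' A i)) := by
        rw [integral_finsetSum]
        · apply Finset.sum_congr rfl
          intro i _
          rw [show (fun _ : Ω => (1 : ℝ)) = (1 : Ω → ℝ) from rfl, integral_indicator_one (hs i)]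
        · intro i _
          exact Integrable.indicator (integrable_const _) (hs i)

/-- the averaging inequality -/
theorem average_bound {μ : Measure Ω} [IsProbabilityMeasure μ] {K : ℕ} (hK : 0 < K)
    (H : Ω → ℝ) (G : Fin K → Ω → ℝ) (hH : Measurable H) (hG : ∀ j, Measurable (G j))
    (hH1 : ∀ x, |H x| ≤ 1) (hG1 : ∀ j x, |G j x| ≤ 1) (ε : ℝ) (hε : 0 ≤ ε)
    (hcorr : ∀ i j, i ≠ j → |∫ x, G i x * G j x ∂μ| ≤ ε) (δ : ℝ) (hδ : 0 < δ) :
    |∑ j, ∫ x, H x * G j x ∂μ| ≤ K * (δ / 2 + (1 / K + ε) / (2 * δ)) := by
  have hKr : (0 : ℝ) < K := by exact_mod_cast hK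
  have hHG : ∀ j, Integrable (fun x => H x * G j x) μ := by
    intro j
    apply Integrable.of_bound (hH.mul (hG j)).aestronglyMeasurable 1
    apply Eventually.of_forall
    intro x
    rw [Real.norm_eq_abs, Pi.mul_apply, abs_mul]
    calc |H x| * |G j x| ≤ 1 * 1 := by
          gcongr
          · exact hH1 x
          · exact hG1 j x
      _ = 1 := by ring
  have hGG : ∀ i j, Integrable (fun x => G i x * G j x) μ := by
    intro i j
    apply Integrable.of_bound ((hG i).mul (hG j)).aestronglyMeasurable 1
    apply Eventually.of_forall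
    intro x
    rw [Real.norm_eq_abs, Pi.mul_apply, abs_mul]
    calc |G i x| * |G j x| ≤ 1 * 1 := by
          gcongr
          · exact hG1 i x
          · exact hG1 j x
      _ = 1 := by ring
  set Y : Ω → ℝ := fun x => (∑ j, G j x) / K with hY
  have hYm : Measurable Y := (Finset.measurable_sum _ (fun j _ => hG j)).div_const _
  have hY1 : ∀ x, |Y x| ≤ 1 := by
    intro x
    rw [hY]
    simp only
    rw [abs_div, abs_of_pos hKr, div_le_one hKr]
    calc |∑ j, G j x| ≤ ∑ j, |G j x| := Finset.abs_sum_le_sum_abs _ _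
      _ ≤ ∑ _j : Fin K, (1 : ℝ) := Finset.sum_le_sum (fun j _ => hG1 j x)
      _ = K := by simp
  have hsum : ∑ j, ∫ x, H x * G j x ∂μ = K * ∫ x, H x * Y x ∂μ := by
    rw [← integral_finsetSum _ (fun j _ => hHG j), ← integral_const_mul]
    congr 1
    ext x
    rw [hY]
    simp only
    rw [← Finset.mul_sum]
    field_simp
  have hYY : Integrable (fun x => Y x ^ 2) μ := by
    apply Integrable.of_bound (hYm.pow_const 2).aestronglyMeasurable 1
    apply Eventually.of_forall
    intro x
    rw [Real.norm_eq_abs, abs_pow]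
    exact pow_le_one₀ (abs_nonneg _) (hY1 x)
  have hYYle : ∫ x, Y x ^ 2 ∂μ ≤ 1 / K + ε := by
    have e : ∀ x, Y x ^ 2 = (1 / (K : ℝ) ^ 2) * ∑ i, ∑ j, G i x * G j x := by
      intro x
      rw [hY]
      simp only
      rw [div_pow, sq (∑ j, G j x), Finset.sum_mul_sum]
      ring
    simp_rw [e]
    rw [integral_const_mul, integral_finsetSum _ (fun i _ => integrable_finsetSum _ (fun j _ => hGG i j))]
    have e2 : ∀ i, ∫ x, ∑ j, G i x * G j x ∂μ ≤ 1 + K * ε := by
      intro i
      rw [integral_finsetSum _ (fun j _ => hGG i j)]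
      calc ∑ j, ∫ x, G i x * G j x ∂μ
          ≤ ∑ j, ((if i = j then 1 else 0) + ε) := by
            apply Finset.sum_le_sum
            intro j _
            by_cases hij : i = j
            · subst hij
              rw [if_pos rfl]
              have : ∫ x, G i x * G i x ∂μ ≤ ∫ _x, (1 : ℝ) ∂μ := by
                apply integral_mono (hGG i i) (integrable_const _)
                intro x
                simp only
                calc G i x * G i x = |G i x| ^ 2 := by rw [sq_abs]; ring
                  _ ≤ 1 := pow_le_one₀ (abs_nonneg _) (hG1 i x)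
              simp at this
              linarith
            · rw [if_neg hij]
              have := hcorr i j hij
              have := le_abs_self (∫ x, G i x * G j x ∂μ)
              linarith
        _ = 1 + K * ε := by
            rw [Finset.sum_add_distrib]
            simp
    calc (1 / (K : ℝ) ^ 2) * ∑ i, ∫ x, ∑ j, G i x * G j x ∂μ
        ≤ (1 / (K : ℝ) ^ 2) * ∑ _i : Fin K, (1 + K * ε) := by
          gcongr with i _
          exact e2 i
      _ = 1 / K + ε := by
          simp
          field_simp
  have hmain : |∫ x, H x * Y x ∂μ| ≤ δ / 2 + (1 / K + ε) / (2 * δ) := by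
    calc |∫ x, H x * Y x ∂μ| ≤ ∫ x, |H x * Y x| ∂μ := abs_integral_le_integral_abs
      _ ≤ ∫ x, (δ / 2 + Y x ^ 2 / (2 * δ)) ∂μ := by
          apply integral_mono
          · apply Integrable.abs
            apply Integrable.of_bound (hH.mul hYm).aestronglyMeasurable 1
            apply Eventually.of_forall
            intro x
            rw [Real.norm_eq_abs, Pi.mul_apply, abs_mul]
            calc |H x| * |Y x| ≤ 1 * 1 := by
                  gcongr
                  · exact hH1 x
                  · exact hY1 x
              _ = 1 := by ring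
          · exact (integrable_const _).add (hYY.div_const _)
          · intro x
            simp only
            rw [abs_mul]
            have h1 : |H x| * |Y x| ≤ |Y x| := by
              calc |H x| * |Y x| ≤ 1 * |Y x| := by
                    gcongr
                    exact hH1 x
                _ = |Y x| := one_mul _
            have h2 : |Y x| ≤ δ / 2 + Y x ^ 2 / (2 * δ) := by
              rw [← sq_abs (Y x)]
              have : 0 ≤ (|Y x| - δ) ^ 2 / (2 * δ) := by positivity
              have e : (|Y x| - δ) ^ 2 / (2 * δ) = δ / 2 + |Y x| ^ 2 / (2 * δ) - |Y x| := by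
                field_simp
                ring
              linarith
            linarith
      _ = δ / 2 + (∫ x, Y x ^ 2 ∂μ) / (2 * δ) := by
          rw [integral_add (integrable_const _) (hYY.div_const _), integral_div (2 * δ) (fun x => Y x ^ 2)]
          simp
      _ ≤ δ / 2 + (1 / K + ε) / (2 * δ) := by gcongr
  rw [hsum, abs_mul, abs_of_pos hKr]
  gcongr

end Vale.Agent.P102
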